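import Vale.Agent.P159.T1.S.H598.L1

/-!
The product bound of the sharp stage as one statement, and the bound of the sector `(0|1)` with the
charges `ρ'` (S.L1) from it.
-/

open Filter Topology

namespace Vale.Agent.P159.T1.S.H598

open Vale.Agent.P159 Vale.Agent.P159.H353 Vale.Agent.P159.T1 Vale.Agent.P159.T1.D
open Vale.Agent.P159.T1.D.H172 Vale.Agent.P159.T1.D.H598

/-- S.GOOD: the product bound with the last line kept -/
def StmtGoodS : Prop :=
  ∀ b V κ ε : ℝ, bCrit ≤ b → 1 < V → 1 < 2 * V ^ 2 / (Real.pi * helicity b) → 0 < κ → 0 < ε →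
    ∃ q0 : ℕ, ∀ q ≥ q0, ∃ (x y s c0 : ℝ) (n1 A0 : ℕ), 0 < c0 ∧ ∀ c1 : ℝ, 0 < c1 → c1 ≤ c0 →
      Par q κ x y s c1 ∧ ∀ n0 ≥ n1, ∃ (c : ℝ) (r0 : ℕ), 0 < c ∧ ∀ (A r : ℕ) (M : ℝ),
        A0 ≤ A → r0 ≤ r → 0 ≤ M →
        (∀ N : Finset Z2, Expl (SB (A * r) r) (Tz q r c1 (SB (A * r) r)) N →
          Zn b (SB (A * r) r) N 1 (D.rho (helicity b) V q n0 r κ x y s) *
              Z b (SB (A * r) r \ nbF (SB (A * r) r) N) ≤
            M * (Real.exp (∑ f ∈ SB (A * r) r \ N, rp (helicity b) V q n0 r κ x y s c1 f) *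
                Zρ b (SB (A * r) r \ nbF (SB (A * r) r) N)
                  (rp (helicity b) V q n0 r κ x y s c1)) *
              Z b (SB (A * r) r \ N)) →
        c * (r : ℝ) ^ (-ε) *
            Zρ b (SB (A * r) r) (D.rho (helicity b) V q n0 r κ x y s) ≤
          M * (Real.exp (∑ f ∈ SB (A * r) r, rp (helicity b) V q n0 r κ x y s c1 f) *
            Zs b (SB (A * r) r) (-1) (rp (helicity b) V q n0 r κ x y s c1))

/-- S.GOOD from S.PROB and S.AMP -/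
theorem goodS_of (hProb : StmtProb) (hAmp : StmtAmp) (hPos : StmtPos) : StmtGoodS := by
  intro b V κ ε hb hV hp hκ hε
  have hb0 : 0 < b := H170.bCrit_pos.trans_le hb
  have hpi := Real.pi_pos
  have hY : 0 < helicity b := lt_of_lt_of_le (by positivity) (helicity_ge hb)
  have hV0 : 0 < V := by linarith
  obtain ⟨q0, hq1⟩ := hProb b V κ ε hb hV0 hp hκ hε
  refine ⟨q0, fun q hq => ?_⟩
  obtain ⟨x, y, s, c0, n1, A0, hc0, h1⟩ := hq1 q hq
  refine ⟨x, y, s, min c0 (1 / 16), n1 + 1, A0 + 1, lt_min hc0 (by norm_num), fun c1 hc1 hc => ?_⟩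
  obtain ⟨hPar, h2⟩ := h1 c1 hc1 (hc.trans (min_le_left _ _))
  refine ⟨hPar, fun n0 hn0 => ?_⟩
  obtain ⟨c, r1, hc, hP⟩ := h2 n0 (by omega)
  obtain ⟨r2, hr2⟩ := exists_nat_gt ((n0 : ℝ) / c1)
  refine ⟨c, r1 + r2 + 2, hc, fun A r M hA hr hM hK => ?_⟩
  have hr1 : 1 ≤ r := by omega
  have hAr : r ≤ A * r := Nat.le_mul_of_pos_left r (by omega)
  have hnr : (n0 : ℝ) ≤ c1 * r := by
    have h3 : (r2 : ℝ) ≤ r := by exact_mod_cast (by omega : r2 ≤ r)
    have h4 : (n0 : ℝ) / c1 < r := hr2.trans_le h3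
    rw [div_lt_iff₀ hc1] at h4
    linarith
  have hc16 : c1 ≤ 1 / 16 := by
    have := min_le_right c0 (1 / 16)
    linarith
  exact (hP A r (by omega) (by omega)).trans (hAmp b M (A * r) r
    (D.rho (helicity b) V q n0 r κ x y s) (rp (helicity b) V q n0 r κ x y s c1)
    (Tz q r c1 (SB (A * r) r)) hb0 hM (by omega) hr1
    (fun f => H172.rho_nonneg hPos hY hV0 hPar.1 hκ.le f)
    (fun f => rp_nonneg hY hV hPar.1 hκ.le (by omega) (by linarith) hnr f)
    (fun f hf => rp_off hPar.1 hnr (by omega) hf) Set.subset_union_right hK)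

/-- **S.L1** from S.GOOD -/
theorem l1_of_good (hGood : StmtGoodS) (hKey : StmtKey) (hLow : StmtLow) : StmtL1 := by
  intro b ε hb hε
  have hb0 : 0 < b := H170.bCrit_pos.trans_le hb
  have hpi := Real.pi_pos
  have hY2 := helicity_ge hb
  have hY : 0 < helicity b := lt_of_lt_of_le (by positivity) hY2
  have hε4 : 0 < ε / 4 := by positivity
  obtain ⟨V, hV, hp⟩ : ∃ V : ℝ, 1 < V ∧ 1 < 2 * V ^ 2 / (Real.pi * helicity b) := by
    have hsq : 0 < Real.sqrt (Real.pi * helicity b / 2) := Real.sqrt_pos.2 (by positivity)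
    have hs2 : Real.sqrt (Real.pi * helicity b / 2) ^ 2 = Real.pi * helicity b / 2 :=
      Real.sq_sqrt (by positivity)
    refine ⟨Real.sqrt (Real.pi * helicity b / 2) + 1, by linarith, ?_⟩
    rw [lt_div_iff₀ (by positivity)]
    nlinarith
  have hV0 : 0 < V := by linarith
  obtain ⟨q0, hq1⟩ := hGood b V 1 (ε / 4) hb hV hp one_pos hε4
  obtain ⟨x, y, s, c0, n1, A0, hc0, h1⟩ := hq1 q0 le_rfl
  have hc1 : 0 < min c0 (1 / 16) := lt_min hc0 (by norm_num)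
  set c1 := min c0 (1 / 16) with hc1d
  have hc16 : c1 ≤ 1 / 16 := min_le_right _ _
  obtain ⟨hPar, h2⟩ := h1 c1 hc1 (min_le_left _ _)
  have hq : 1 ≤ q0 := hPar.1
  have hd : 0 < ang q0 := D.ang_pos hq
  obtain ⟨nK, hK⟩ := hKey b V (ε / 4) 1 x y s c1 q0 hb hV hε4 hPar hc16
  obtain ⟨nL, hL⟩ := hLow b V q0 1 x y s (ε / 4) hb hV0 hq hε4 one_pos hPar.2.2.1 hPar.2.2.2.1
    hPar.2.2.2.2.1 hPar.2.2.2.2.2.1
  refine ⟨V, 1, x, y, s, c1, q0, n1 + nK + nL, A0 + 1, hV, hPar, fun n0 hn0 => ?_⟩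
  obtain ⟨c, r1, hc, hP⟩ := h2 n0 (by omega)
  obtain ⟨CK, rK, hK'⟩ := hK n0 (by omega)
  obtain ⟨CL, hL'⟩ := hL n0 (by omega)
  refine ⟨CL + CK - Real.log c, r1 + rK + nL + 1, fun A r hA hr => ?_⟩
  have hr1 : 1 ≤ r := by omega
  have hrR : (0 : ℝ) < r := by exact_mod_cast hr1
  have hrR1 : (1 : ℝ) ≤ r := by exact_mod_cast hr1
  have hA1 : 1 ≤ A := by omega
  have hz := H910.Z_pos hb0.le (SB (A * r) r)
  refine l1_num hY hd (Real.log_nonneg hrR1) hε hz hc (Real.exp_log hc) ?_ (En_shift hd)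
    (hL' A r hA1 (by omega)) (hP A r (Real.exp (Real.log r / (helicity b * ang q0) +
      ε / 4 * Real.log r + CK)) (by omega) (by omega) (Real.exp_pos _).le
      fun N hN => hK' A r hA1 (by omega) N hN) le_rfl
  rw [Real.rpow_def_of_pos hrR, mul_comm]

/-- **The sharp lower bound from the rows**, version with S.GOOD -/
theorem sharp_of_good (hTop : StmtTop) (hLow : StmtLow) (hGood : StmtGoodS) (hKey : StmtKey)
    (hLowP : StmtLowP) (hUp : StmtUpM) : StmtSharp :=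
  sharp_of hTop (l1_of_good hGood hKey hLow) hLowP hUp

end Vale.Agent.P159.T1.S.H598
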