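import Vale.Agent.P159.T1.S.Stmts
import Vale.Agent.P159.T1.D.H598.AxisR1

/-!
Row S.FIN of plan 118: the sharp exponent on the axis from the bounds of the sector `(0|1)` with the
charges `ρ'` and `2 ρ'`, and of the sector `(0|0)` with the charges `ρ'`.
-/

open Filter Topology

namespace Vale.Agent.P159.T1.S.H598

open Vale.Agent.P159 Vale.Agent.P159.H353 Vale.Agent.P159.T1 Vale.Agent.P159.T1.D
open Vale.Agent.P159.T1.D.H172 Vale.Agent.P159.T1.D.H598 Vale.Agent.P159.T1.D.H802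
open Vale.Agent.P159.T1.H598 Vale.Agent.P159.T1.H934

lemma Zs_neg_one (b : ℝ) (U : Finset Z2) : Zs b U (-1) 0 = Zs b U 1 0 := by
  have h1 : Zs b U (-1) 0 = Zt (sv U) (tv U) (fun _ => b) (op U) (om U) 0 0 (-1) := by
    rw [Zs_eq, cg_zero, Zt_swap]
  have h2 : Zs b U 1 0 = Zt (sv U) (tv U) (fun _ => b) (op U) (om U) 0 0 1 := by
    rw [Zs_eq, cg_zero, Zt_swap]
  have h3 := Zt_neg (s := sv U) (t := tv U) (fun _ => b) (op U) (om U) 0 1
  rw [neg_zero] at h3
  rw [h1, h2, h3]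

/-- the algebra of the exponent -/
lemma fin_alg {L Y e v d δ S l1 l0 l2 l : ℝ} (hY : 0 < Y) (hd : 0 < d)
    (h1 : 2 * L / Y * (e + v / d - 1 / (4 * Real.pi)) - δ ≤ S + l1)
    (h0 : 2 * L / Y * e - δ ≤ l0)
    (h2 : 2 * S + l2 ≤ 2 * L / Y * (4 * e + 2 * v / d - 1 / (4 * Real.pi)) + δ)
    (h : 2 * l1 + 2 * l0 - l2 ≤ l) : -(1 / (2 * Real.pi * Y) * L + 5 * δ) ≤ l := by
  have hpi := Real.pi_pos
  refine le_trans ?_ h
  have e1 : 2 * (2 * L / Y * (e + v / d - 1 / (4 * Real.pi)) - δ) + 2 * (2 * L / Y * e - δ) -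
      (2 * L / Y * (4 * e + 2 * v / d - 1 / (4 * Real.pi)) + δ) =
      -(1 / (2 * Real.pi * Y) * L + 5 * δ) := by
    field_simp
    ring
  linarith

/-- **S.FIN**: the sharp exponent on the axis, at large distances -/
theorem axisSharp (hTop : StmtTop) (hL1 : StmtL1) (hLow : StmtLowP) (hUp : StmtUpM) {b : ℝ}
    (hb : bCrit ≤ b) : F.AxisB b (1 / (2 * Real.pi * helicity b)) := by
  intro ε hε
  have hb0 : 0 < b := H170.bCrit_pos.trans_le hb
  have hpi := Real.pi_pos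
  have hY2 := helicity_ge hb
  have hY : 0 < helicity b := lt_of_lt_of_le (by positivity) hY2
  have hε5 : 0 < ε / 5 := by positivity
  obtain ⟨V, κ, x, y, s, c1, q, n1, A0, hV, hPar, hn1⟩ := hL1 b (ε / 5) hb hε5
  obtain ⟨n2, hn2⟩ := hLow b V (ε / 5) κ x y s c1 q hb hV hε5 hPar
  obtain ⟨n3, hn3⟩ := hUp b V (ε / 5) κ x y s c1 q hb hV hε5 hPar
  obtain ⟨C1, r1, h1⟩ := hn1 (n1 + n2 + n3) (by omega)
  obtain ⟨C2, r2, h2⟩ := hn2 (n1 + n2 + n3) (by omega)
  obtain ⟨C3, r3, h3⟩ := hn3 (n1 + n2 + n3) (by omega)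
  set n0 := n1 + n2 + n3
  set C := max C1 (max C2 C3) with hC
  have m1 : C1 ≤ C := le_max_left _ _
  have m2 : C2 ≤ C := (le_max_left _ _).trans (le_max_right _ _)
  have m3 : C3 ≤ C := (le_max_right _ _).trans (le_max_right _ _)
  have hd : 0 < ang q := by
    have : (0 : ℝ) < q := by exact_mod_cast hPar.1
    unfold ang
    exact Real.arctan_pos.2 (by positivity)
  refine ⟨Real.exp (-(5 * C)), Real.exp_pos _, r1 + r2 + r3 + 2, fun r hr => ?_⟩
  have hr1 : 1 ≤ r := by omega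
  have hrR : (0 : ℝ) < r := by exact_mod_cast hr1
  set A := A0 + 1 with hA
  have hA1 : 1 ≤ A := by omega
  have hAr : r ≤ A * r := Nat.le_mul_of_pos_left r (by omega)
  have hR1 : 1 ≤ A * r := by omega
  set U := SB (A * r) r with hU
  have hz : 0 < Z b U := Z_pos hR1 hr1 hb0
  set ρ := rp (helicity b) V q n0 r κ x y s c1 with hρ
  have k1 := h1 A r (by omega) (by omega)
  have k2 := h2 A r hA1 (by omega)
  have k3 := h3 A r hA1 (by omega)
  -- logarithms
  have g1 : 2 * Real.log r / helicity b *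
      (En (V - aq q) q + (V - aq q) / ang q - 1 / (4 * Real.pi)) -
      (ε / 5 * Real.log r + C) ≤ (∑ f ∈ U, ρ f) + lS b U (-1) ρ := by
    have hp := Zs_pos hR1 hr1 hb0 (-1) ρ
    unfold lS
    rw [← Real.log_exp (∑ f ∈ U, ρ f), ← Real.log_mul (Real.exp_pos _).ne' (div_pos hp hz).ne',
      Real.le_log_iff_exp_le (mul_pos (Real.exp_pos _) (div_pos hp hz)), ← mul_div_assoc,
      le_div_iff₀ hz]
    refine le_trans (mul_le_mul_of_nonneg_right (Real.exp_le_exp.2 ?_) hz.le) k1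
    linarith
  have g0 : 2 * Real.log r / helicity b * En (V - aq q) q - (ε / 5 * Real.log r + C) ≤
      lS b U 0 ρ := by
    apply lS_ge hb0
    refine le_trans (mul_le_mul_of_nonneg_right (Real.exp_le_exp.2 ?_) hz.le) k2
    linarith
  have g2 : 2 * (∑ f ∈ U, ρ f) + lS b U (-1) ((2 : ℝ) • ρ) ≤ 2 * Real.log r / helicity b *
      (4 * En (V - aq q) q + 2 * (V - aq q) / ang q - 1 / (4 * Real.pi)) +
      (ε / 5 * Real.log r + C) := by
    have hp := Zs_pos hR1 hr1 hb0 (-1) ((2 : ℝ) • ρ)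
    unfold lS
    rw [← Real.log_exp (2 * ∑ f ∈ U, ρ f),
      ← Real.log_mul (Real.exp_pos _).ne' (div_pos hp hz).ne',
      Real.log_le_iff_le_exp (mul_pos (Real.exp_pos _) (div_pos hp hz)), ← mul_div_assoc,
      div_le_iff₀ hz]
    refine le_trans k3 (mul_le_mul_of_nonneg_right (Real.exp_le_exp.2 ?_) hz.le)
    linarith
  have g := fin_alg hY hd g1 g0 g2 (lS_close hR1 hr1 hb0 ρ (-1))
  -- the correlation
  have h6 : Real.exp (-(1 / (2 * Real.pi * helicity b) * Real.log r +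
      5 * (ε / 5 * Real.log r + C))) * Z b U ≤ corrInf b ((r : ℤ), 0) * Z b U := by
    refine le_trans ?_ (hTop b (A * r) r hb0 (by omega) hr1)
    rw [← Zs_neg_one]
    have hzs := Zs_pos hR1 hr1 hb0 (-1) 0
    rw [← le_div_iff₀ hz, ← Real.le_log_iff_exp_le (div_pos hzs hz)]
    exact g
  have h7 := le_of_mul_le_mul_right h6 hz
  refine le_trans (le_of_eq ?_) h7
  rw [Real.rpow_def_of_pos hrR, ← Real.exp_add]
  congr 1
  ring

/-- **the sharp lower bound** -/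
theorem sharp_of (hTop : StmtTop) (hL1 : StmtL1) (hLow : StmtLowP) (hUp : StmtUpM) :
    StmtSharp := by
  intro b ε hb hε
  obtain ⟨c, hc, h⟩ := F.axis_all (H170.bCrit_pos.trans_le hb)
    (axisSharp hTop hL1 hLow hUp hb) hε
  exact ⟨c, hc, fun r _ => h r⟩

end Vale.Agent.P159.T1.S.H598
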