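import Vale.Agent.P159.T1.S.H598.Good
import Vale.Agent.P159.T1.S.H172.GoodU
import Vale.Agent.P159.T1.S.H857.LowP
import Vale.Agent.P159.T1.H565.Upm7
import Vale.Agent.P159.T1.D.H172.Fin

/-!
The sharp exponent on the axis from S.KEY alone.
-/

open Filter Topology

namespace Vale.Agent.P159.T1.S.H598

open Vale.Agent.P159 Vale.Agent.P159.H353 Vale.Agent.P159.T1 Vale.Agent.P159.T1.D

/-- the product bound, proved by 172 -/
theorem goodS : StmtGoodS := by
  intro b V κ ε hb hV hp hκ hε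
  obtain ⟨q0, h0⟩ := H172.stmtGoodS b V κ ε hb (by linarith) hp hκ hε
  refine ⟨q0, fun q hq => ?_⟩
  obtain ⟨x, y, s, c0, n1, A0, hc0, h1⟩ := h0 q hq
  refine ⟨x, y, s, c0, n1, A0, hc0, fun c1 hc1 hc => ?_⟩
  obtain ⟨hPar, _, h2⟩ := h1 c1 hc1 hc
  refine ⟨hPar, fun n0 hn0 => ?_⟩
  obtain ⟨c, r0, hc, h3⟩ := h2 n0 hn0
  refine ⟨c, r0, hc, fun A r M hA hr hM hK => ?_⟩
  rw [mul_comm (c * (r : ℝ) ^ (-ε))]
  exact h3 A r hA hr M hM hK

/-- S.L1 from S.KEY -/
theorem l1_key (hKey : StmtKey) : StmtL1 := l1_of_good goodS hKey D.H172.low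

/-- **the sharp exponent on the axis from S.KEY** -/
theorem axisSharp_key (hKey : StmtKey) {b : ℝ} (hb : bCrit ≤ b) :
    F.AxisB b (1 / (2 * Real.pi * helicity b)) :=
  axisSharp D.H857.stmtTop (l1_key hKey) (H857.stmtLowP_of D.H172.low) (H565.stmtUpM D.stmtU) hb

/-- **the sharp lower bound from S.KEY** -/
theorem sharp_key (hKey : StmtKey) : StmtSharp :=
  sharp_of D.H857.stmtTop (l1_key hKey) (H857.stmtLowP_of D.H172.low) (H565.stmtUpM D.stmtU)

end Vale.Agent.P159.T1.S.H598
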