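import Vale.Agent.P159.T1.S.H598.Fin
import Vale.Agent.P159.T1.D.H407.Arm1

/-!
The bound of the sector `(0|1)` with the charges `ρ'` (S.L1) from S.PROB, S.AMP, S.KEY and D.LOW.
-/

open Filter Topology

namespace Vale.Agent.P159.T1.S.H598

open Vale.Agent.P159 Vale.Agent.P159.H353 Vale.Agent.P159.T1 Vale.Agent.P159.T1.D
open Vale.Agent.P159.T1.D.H172 Vale.Agent.P159.T1.D.H598

lemma aq_pos (q : ℕ) : 0 < aq q := by
  have hpi := Real.pi_pos
  have h := D.ang_lt q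
  unfold aq
  have : 0 < 2 * Real.pi - ang q := by linarith
  positivity

lemma aq_le (q : ℕ) : aq q ≤ 1 := by
  have hpi := Real.pi_pos
  unfold aq
  rw [div_le_one (by positivity)]
  have : 0 ≤ ang q := by
    unfold ang
    exact Real.arctan_nonneg.2 (by positivity)
  linarith

lemma clp_slope {a A : ℝ} (s t : ℝ) (h : s ≤ t) : clp a A t - clp a A s ≤ t - s := by
  unfold clp
  rcases le_total t (Real.log A) with h1 | h1 <;> rcases le_total s (Real.log A) with h2 | h2 <;>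
    simp only [min_eq_left, min_eq_right, h1, h2] <;>
    rcases max_cases (Real.log a) t with h3 | h3 <;>
    rcases max_cases (Real.log a) s with h4 | h4 <;>
    rcases max_cases (Real.log a) (Real.log A) with h5 | h5 <;> linarith

section charges

variable {Y V κ x y s c1 : ℝ} {q n0 r : ℕ}

/-- the charges of the shorter profile are smaller -/
lemma ro_short (hY : 0 < Y) (hV : 0 < V) (hq : 1 ≤ q) (hn : 1 ≤ n0) (hc : c1 ≤ 1 / 4)
    (hr : (n0 : ℝ) ≤ c1 * r) (f : Z2) :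
    ro Y V q (clp n0 (c1 * r)) f ≤ ro Y V q (clp n0 ((r : ℝ) / 4)) f := by
  have hn' : (1 : ℝ) ≤ n0 := by exact_mod_cast hn
  have hl : Real.log n0 ≤ Real.log (c1 * r) := Real.log_le_log (by linarith) hr
  have hr0 : (0 : ℝ) ≤ r := Nat.cast_nonneg r
  have hl2 : Real.log (c1 * r) ≤ Real.log ((r : ℝ) / 4) :=
    Real.log_le_log (by linarith) (by nlinarith)
  refine ro_mono hY hV hq (clp_sub_mono clp_slope (fun t ht => ?_) (fun t ht => ?_)
    (hl.trans hl2)) f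
  · unfold clp
    rw [max_eq_left ((min_le_left _ _).trans ht), max_eq_left (min_le_left _ _)]
  · unfold clp
    rw [min_eq_right (hl2.trans ht), min_eq_right hl2]

lemma ro_aq_le (hY : 0 < Y) (hV : 1 < V) (hq : 1 ≤ q) (hn : 1 ≤ n0) (hc : c1 ≤ 1 / 4)
    (hr : (n0 : ℝ) ≤ c1 * r) (f : Z2) :
    ro Y (aq q) q (clp n0 (c1 * r)) f ≤ ro Y V q (clp n0 ((r : ℝ) / 4)) f := by
  have hV0 : 0 < V := by linarith
  have h1 := ro_short (f := f) hY hV0 hq hn hc hr
  have h2 : 0 ≤ ro Y V q (clp n0 (c1 * r)) f := D.ro_nonneg hY hV0 hq (clp_mono _ _) f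
  have h3 : ro Y (aq q) q (clp n0 (c1 * r)) f = aq q / V * ro Y V q (clp n0 (c1 * r)) f := by
    rw [← D.H598.ro_smul]
    congr 1
    field_simp
  have h4 : aq q / V ≤ 1 := by
    rw [div_le_one hV0]
    have := aq_le q
    linarith
  rw [h3]
  refine le_trans ?_ h1
  exact mul_le_of_le_one_left h2 h4

/-- **the charges `ρ'` are nonnegative** -/
lemma rp_nonneg (hY : 0 < Y) (hV : 1 < V) (hq : 1 ≤ q) (hκ : 0 ≤ κ)
    (hn : 1 ≤ n0) (hc : c1 ≤ 1 / 4) (hr : (n0 : ℝ) ≤ c1 * r) (f : Z2) :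
    0 ≤ rp Y V q n0 r κ x y s c1 f := by
  have h1 := ro_aq_le (f := f) hY hV hq hn hc hr
  have h2 := ro_aq_le (f := mir r f) hY hV hq hn hc hr
  have h3 := H172.bump_nonneg hκ r x y s f
  have h4 := H172.bump_nonneg hκ r x y s (mir r f)
  unfold rp rz D.rho
  linarith

/-- the charges of the layer field sit in the strip -/
lemma ro_off_strip (hq : 1 ≤ q) (hr : (n0 : ℝ) ≤ c1 * r) (hn : 1 ≤ n0) {f : Z2}
    (hf : f ∉ strip q 1 (⌊2 * c1 * r⌋₊ + 2)) : ro Y V q (clp n0 (c1 * r)) f = 0 := by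
  by_contra h
  apply hf
  obtain ⟨i, j⟩ := f
  have hc := (D.ro_support h).1
  have hn' : (1 : ℝ) ≤ n0 := by exact_mod_cast hn
  have hcr : 0 < c1 * r := by linarith
  have h1 := ro_col_lt (β := Real.log (c1 * r)) hq (fun t ht => by
    unfold clp
    rw [min_eq_right ht, min_self]) h
  rw [Real.exp_log hcr] at h1
  have hneg := cone_neg hq hc
  refine ⟨hc, ?_, ?_⟩
  · show ((1 : ℕ) : ℤ) ≤ -i
    push_cast
    omega
  · show -i < ((⌊2 * c1 * r⌋₊ + 2 : ℕ) : ℤ)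
    have h2 : -(i : ℝ) - 1 < ⌊2 * c1 * r⌋₊ + 1 := by
      have := Nat.lt_floor_add_one (2 * c1 * (r : ℝ))
      nlinarith
    have h3 : (-i : ℝ) < ((⌊2 * c1 * r⌋₊ + 2 : ℕ) : ℝ) := by
      push_cast
      linarith
    exact_mod_cast h3

/-- `ρ' = ρ` off the target -/
lemma rp_off (hq : 1 ≤ q) (hr : (n0 : ℝ) ≤ c1 * r) (hn : 1 ≤ n0) {U : Finset Z2} {f : Z2}
    (hf : f ∉ Tz q r c1 U) : rp Y V q n0 r κ x y s c1 f = D.rho Y V q n0 r κ x y s f := by
  have h1 : f ∉ strip q 1 (⌊2 * c1 * r⌋₊ + 2) := fun h => hf (Or.inl (Or.inl h))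
  have h2 : mir r f ∉ strip q 1 (⌊2 * c1 * r⌋₊ + 2) := fun h => hf (Or.inl (Or.inr h))
  unfold rp rz
  rw [ro_off_strip hq hr hn h1, ro_off_strip hq hr hn h2]
  ring

end charges

/-- the identity between the energies -/
lemma En_shift {V : ℝ} {q : ℕ} (hd : 0 < ang q) :
    En V q - 1 / (2 * ang q) = En (V - aq q) q + (V - aq q) / ang q - 1 / (4 * Real.pi) := by
  have hpi := Real.pi_pos
  have h := D.ang_lt q
  have h1 : 2 * Real.pi - ang q ≠ 0 := by
    have : 0 < 2 * Real.pi - ang q := by linarith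
    exact this.ne'
  unfold En aq
  field_simp
  ring

/-- the numbers -/
lemma l1_num {L Y e d ε CL CK c e' lc Z zr w RHS : ℝ} {rr : ℝ} (hY : 0 < Y) (hd : 0 < d)
    (hL : 0 ≤ L) (hε : 0 < ε) (hZ : 0 < Z) (hc : 0 < c) (hlc : Real.exp lc = c)
    (hrr : rr = Real.exp (-(ε / 4) * L)) (he : e - 1 / (2 * d) = e')
    (h1 : Real.exp (2 * L / Y * e - ε / 4 * L - CL) * Z ≤ zr) (h2 : c * rr * zr ≤ w)
    (h3 : w ≤ Real.exp (L / (Y * d) + ε / 4 * L + CK) * RHS) :
    Real.exp (2 * L / Y * e' - ε * L - (CL + CK - lc)) * Z ≤ RHS := by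
  have h4 : c * rr * (Real.exp (2 * L / Y * e - ε / 4 * L - CL) * Z) ≤
      Real.exp (L / (Y * d) + ε / 4 * L + CK) * RHS :=
    (mul_le_mul_of_nonneg_left h1 (by rw [hrr]; positivity)).trans (h2.trans h3)
  have h5 : c * rr * (Real.exp (2 * L / Y * e - ε / 4 * L - CL) * Z) =
      Real.exp (L / (Y * d) + ε / 4 * L + CK) *
        (Real.exp (2 * L / Y * e' - 3 * ε / 4 * L - (CL + CK - lc)) * Z) := by
    rw [hrr, ← hlc, ← he, ← mul_assoc, ← mul_assoc, ← Real.exp_add, ← Real.exp_add,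
      ← Real.exp_add]
    congr 2
    field_simp
    ring
  rw [h5] at h4
  have h6 := le_of_mul_le_mul_left h4 (Real.exp_pos _)
  refine le_trans (mul_le_mul_of_nonneg_right (Real.exp_le_exp.2 ?_) hZ.le) h6
  nlinarith

/-- **S.L1** -/
theorem l1_of (hProb : StmtProb) (hAmp : StmtAmp) (hKey : StmtKey) (hLow : StmtLow)
    (hPos : StmtPos) : StmtL1 := by
  intro b ε hb hε
  have hb0 : 0 < b := H170.bCrit_pos.trans_le hb
  have hpi := Real.pi_pos
  have hY2 := helicity_ge hb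
  have hY : 0 < helicity b := lt_of_lt_of_le (by positivity) hY2
  have hε4 : 0 < ε / 4 := by positivity
  obtain ⟨V, hV, hp⟩ : ∃ V : ℝ, 1 < V ∧ 1 < 2 * V ^ 2 / (Real.pi * helicity b) := by
    have hsq : 0 < Real.sqrt (Real.pi * helicity b / 2) := Real.sqrt_pos.2 (by positivity)
    have hs2 : Real.sqrt (Real.pi * helicity b / 2) ^ 2 = Real.pi * helicity b / 2 :=
      Real.sq_sqrt (by positivity)
    refine ⟨Real.sqrt (Real.pi * helicity b / 2) + 1, by linarith, ?_⟩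
    rw [lt_div_iff₀ (by positivity)]
    nlinarith
  have hV0 : 0 < V := by linarith
  obtain ⟨q0, hq1⟩ := hProb b V 1 (ε / 4) hb hV0 hp one_pos hε4
  obtain ⟨x, y, s, c0, n1, A0, hc0, h1⟩ := hq1 q0 le_rfl
  have hc1 : 0 < min c0 (1 / 16) := lt_min hc0 (by norm_num)
  set c1 := min c0 (1 / 16) with hc1d
  have hc16 : c1 ≤ 1 / 16 := min_le_right _ _
  obtain ⟨hPar, h2⟩ := h1 c1 hc1 (min_le_left _ _)
  have hq : 1 ≤ q0 := hPar.1
  have hd : 0 < ang q0 := D.ang_pos hq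
  obtain ⟨nK, hK⟩ := hKey b V (ε / 4) 1 x y s c1 q0 hb hV hε4 hPar hc16
  obtain ⟨nL, hL⟩ := hLow b V q0 1 x y s (ε / 4) hb hV0 hq hε4 one_pos hPar.2.2.1 hPar.2.2.2.1
    hPar.2.2.2.2.1 hPar.2.2.2.2.2.1
  refine ⟨V, 1, x, y, s, c1, q0, n1 + nK + nL + 1, A0 + 1, hV, hPar, fun n0 hn0 => ?_⟩
  obtain ⟨c, r1, hc, hP⟩ := h2 n0 (by omega)
  obtain ⟨CK, rK, hK'⟩ := hK n0 (by omega)
  obtain ⟨CL, hL'⟩ := hL n0 (by omega)
  obtain ⟨r2, hr2⟩ := exists_nat_gt ((n0 : ℝ) / c1)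
  refine ⟨CL + CK - Real.log c, r1 + rK + nL + r2 + 2, fun A r hA hr => ?_⟩
  have hr1 : 1 ≤ r := by omega
  have hrR : (0 : ℝ) < r := by exact_mod_cast hr1
  have hrR1 : (1 : ℝ) ≤ r := by exact_mod_cast hr1
  have hA1 : 1 ≤ A := by omega
  have hAr : r ≤ A * r := Nat.le_mul_of_pos_left r (by omega)
  have hR2 : 2 ≤ A * r := by omega
  have hnr : (n0 : ℝ) ≤ c1 * r := by
    have h3 : (r2 : ℝ) ≤ r := by exact_mod_cast (by omega : r2 ≤ r)
    have h4 : (n0 : ℝ) / c1 < r := hr2.trans_le h3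
    rw [div_lt_iff₀ hc1] at h4
    linarith
  have hn01 : 1 ≤ n0 := by omega
  have hz := H910.Z_pos hb0.le (SB (A * r) r)
  have hamp := hAmp b (Real.exp (Real.log r / (helicity b * ang q0) + ε / 4 * Real.log r + CK))
    (A * r) r (D.rho (helicity b) V q0 n0 r 1 x y s) (rp (helicity b) V q0 n0 r 1 x y s c1)
    (Tz q0 r c1 (SB (A * r) r)) hb0 (Real.exp_pos _).le hR2 hr1
    (fun f => H172.rho_nonneg hPos hY hV0 hq zero_le_one f)
    (fun f => rp_nonneg hY hV hq zero_le_one hn01 (by linarith) hnr f)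
    (fun f hf => rp_off hq hnr hn01 hf) Set.subset_union_right
    (fun N hN => hK' A r hA1 (by omega) N hN)
  have hprob := hP A r (by omega) (by omega)
  refine l1_num hY hd (Real.log_nonneg hrR1) hε hz hc (Real.exp_log hc) ?_ (En_shift hd)
    (hL' A r hA1 (by omega)) hprob hamp
  rw [Real.rpow_def_of_pos hrR, mul_comm]

/-- **The sharp lower bound from the rows of plan 118.** -/
theorem sharp_of_rows (hTop : StmtTop) (hPos : StmtPos) (hLow : StmtLow) (hProb : StmtProb)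
    (hAmp : StmtAmp) (hKey : StmtKey) (hLowP : StmtLowP) (hUp : StmtUpM) : StmtSharp :=
  sharp_of hTop (l1_of hProb hAmp hKey hLow hPos) hLowP hUp

end Vale.Agent.P159.T1.S.H598
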